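import Vale.Agent.P154.SN.Data
import Vale.Agent.P154.Check3

namespace Vale.Agent.P154.SN

open Cert

/-- Chart (0, 0). -/
def P00 : Pb := chartPb false false Nd w G [(2, 0), (0, 2)]

/-- Chart (0, 1). -/
def P01 : Pb := chartPb false true Nd w G [(2, 0), (0, 2)]

/-- Chart (1, 0). -/
def P10 : Pb := chartPb true false Nd w G [(2, 0), (0, 2)]

/-- Chart (1, 1). -/
def P11 : Pb := chartPb true true Nd w G [(2, 0), (0, 2)]

/-- The offset. -/
def KK : ℕ := 1707011694817242694164442058424641996069058130512872489061441999811593532881313810309486643423117898430190057111918909554147533223454557460573019149396692491800360340355587726966548041193424390330615044130786970107312831497593974090537952608256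

end Vale.Agent.P154.SN
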