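import Vale.Agent.P154.SN.Charts

set_option maxRecDepth 100000

namespace Vale.Agent.P154.SN

open Cert InT OutT

/-- Certificate tree. -/
def tr00_r100000 : OutT :=
(O (c (c l (d l (c l l))) (c (d (d l l) (c (d l (c l l)) (d (c l l) (c (c l l) (d l l))))) (d (d k (d (c k k) (c k k))) (d (c (d l (c l (c k k))) (d k (c k k))) (c (d (c l l) (c l l)) (d (c l l) l)))))))

theorem s00_r100000 : Sound P00 32768 2048 0 8192 :=
  chkOut3_sound P00 KK tr00_r100000 32768 2048 0 8192 (by decide +kernel)

end Vale.Agent.P154.SN
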