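import Vale.Agent.P154.SN.Charts

set_option maxRecDepth 100000

namespace Vale.Agent.P154.SN

open Cert InT OutT

/-- Certificate tree. -/
def tr00_r10001 : OutT :=
(A (O (c l (c (c l l) (d l (d l (c l l)))))) (B (A (O (c l (c (d l l) (d (d k l) (d (c l l) (c l l)))))) (B (A (O (c (c l (d l l)) (c (d (c l l) (c (c l l) (d l (c l l)))) (d (d k (c k k)) (d (c l (d k l)) (c (c l l) (c l l))))))) (B (A (B (A (O (c (c l (d l (c l l))) (c (d (d l l) (c (d l (c l l)) (d (c l l) (c l (c l l))))) (d (d k (d l (c k k))) (d (c (d l l) (d k (c k k))) (c (c (c l l) (c l l)) (c l l))))))) s) (O (c (c l (d l (c l (c l l)))) (c (d (d l l) (c (d l (c l l)) (d (c l l) (c l (c l l))))) (d (d k (d l (c k k))) (d (c (d l (c l l)) (d k (c k k))) (c (c (c l l) (c l l)) (d (c l l) l)))))))) s) (A (O (c (c l (d l l)) (c (d (c l l) (c (c l l) (d l (c l l)))) (d (d k (d l l)) (d (c l (d k l)) (c (c l l) (c l l))))))) (B (A s s) (O (c (c l (d l (c l (d l (c l l))))) (c (d (d l l) (c (d l (c (d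 l (c l l)) (d l (c l l)))) (d (d l (c l l)) (c (c l (d l l)) (d l (c l l)))))) (d (d k (d l (c k k))) (d (c (d l (c l l)) (d k (c k k))) (c (c (d l l) (d l l)) (d (c l l) l))))))))))) (O (c (c l (d l (c l l))) (c (d (d l l) (c (d l (c l l)) (d l (c l (c l l))))) (d (d k (d l (c k k))) (d (c (d l (c l l)) (d k (c k k))) (c (d (c l l) (c l l)) (d l l))))))))) (O (c (c l l) (c (d l (c l (c l l))) (d (d k l) (d (c l (d k l)) (c (c l l) (c l l)))))))))

theorem s00_r10001 : Sound P00 32768 4096 16384 8192 :=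
  chkOut3_sound P00 KK tr00_r10001 32768 4096 16384 8192 (by decide +kernel)

end Vale.Agent.P154.SN
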