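import Vale.Agent.P154.SN.Charts

set_option maxRecDepth 100000

namespace Vale.Agent.P154.SN

open Cert InT OutT

/-- Certificate tree. -/
def tr00_r1001 : OutT :=
(B (A s s) (A (B (A (B (A s s) (A (B (A (B s (A s s)) s) (A (O (c (c l (d l (c l l))) (c (d (d l l) (c (d l (c l l)) (d l (c l l)))) (d (d k (d l l)) (d (c (c l l) (d k (c k k))) (c (c (c l l) (c l l)) (c l l))))))) s)) s)) s) (A (B (A (O (c (c l (d l (c l l))) (c (d (d l l) (c (d l (c l l)) (d l (c l (c l l))))) (d (d k (d l (c k k))) (d (c (d l (c l l)) (d k (c k k))) (c (c (c l l) (c l l)) (d l l))))))) (B s (A (O (c (c l (d l (c l l))) (c (d (d l l) (c (d l l) (d l (c l l)))) (d (d k (d l l)) (d (c (c l l) (d k (c k k))) (c (c (c l l) (c l l)) (c l l))))))) s))) (O (c (c l (d l (c l l))) (c (d (d l l) (c (d l l) (d l (c l (c l l))))) (d (d k (d l l)) (d (c (c l l) (d k (c k k))) (c (d (c l l) (c l l)) (d l l)))))))) (B s (A (B s (A (O (c (c l (c l l)) (c (d l (c l (c l l))) (d (d k (c k k)) (d (c l (c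 k k)) (c (c l l) (c l l))))))) s)) s)))) (B s (A s s))))

theorem s00_r1001 : Sound P00 40960 4096 0 16384 :=
  chkOut3_sound P00 KK tr00_r1001 40960 4096 0 16384 (by decide +kernel)

end Vale.Agent.P154.SN
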