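import Vale.Agent.P154.SN.Charts

set_option maxRecDepth 100000

namespace Vale.Agent.P154.SN

open Cert InT OutT

/-- Certificate tree. -/
def tr00_r11 : OutT :=
(B (A s s) (A (B (A (B s (A (B s (O (c (c l (d l (c l l))) (d (d l (c l (d l (c k k)))) (c (c (d l (c l (c l l))) (d (c l l) (c (c l l) (d l (c l l))))) (d (c (d l (c l (c k k))) (d k (c k k))) (c (c (d (c l l) (c l l)) (d (c l l) l)) (d (c l l) (c l l))))))))) s)) (B s (A s s))) (A (B (A (O (c l (c l (d l (c l l))))) (O (c l (c (c l l) (d l (d l (c l l))))))) (O (c l (c l l)))) (B (A (O (c (c l l) (c (d l (c l (d l (c l l)))) (d (d k (d l (c k k))) (d (c (d l l) (d k (c k k))) (c (c (d l l) (d l l)) (d (c (c l k) (c k k)) (c l l)))))))) (B s (O (c l (c l l))))) (O (c l (c l (d l (d l (c l l))))))))) (B (A s s) (A (B (A (B s (O (c l (d l (c l l))))) s) (A (O (c l l)) (O (c l l)))) (B (A s s) (A (O (c l l)) (O (c l l))))))))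

theorem s00_r11 : Sound P00 49152 8192 0 32768 :=
  chkOut3_sound P00 KK tr00_r11 49152 8192 0 32768 (by decide +kernel)

end Vale.Agent.P154.SN
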