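import Vale.Agent.P154.SN.Charts

set_option maxRecDepth 100000

namespace Vale.Agent.P154.SN

open Cert InT OutT

/-- Certificate tree. -/
def tr01_r : OutT :=
(A (A (A (A (A (A (A (O (c (c (c (c (c z (c l l)) (c l l)) (c (c l l) (c l l))) (c (d (c l l) (c l l)) (d (c l l) (c l l)))) (c (d (d (c l k) (c l k)) (c l k)) k))) (O (c (c (c (c (c (c l l) (c l l)) (c l l)) (c (c l l) (c l l))) (c (d (c l l) (c l l)) (d (c l l) (c l l)))) (c (d (d (c l k) (c l k)) (c l k)) k)))) (O (c (c (c (c (c l l) (c l l)) (c (c l l) (c l l))) (c (d (c l l) (c l l)) (d (c l l) (c l l)))) (c (d (d (c l k) (c l k)) (c l k)) k)))) (A (O (c (c (c (c l l) (c l (c l l))) (c (d (c l l) (c l l)) (d (c l l) (c l l)))) (c (d (d (c l k) (c l k)) (c l k)) k))) (O (c (c (c l (c l l)) (c (d (c l l) (c l l)) (d (c l l) (c l l)))) (c (d (d (c l k) (c l k)) (c l k)) k))))) (A (O (c (c (c l (c l l)) (c (d (c l l) (c l l)) (d (c l l) (c l l)))) (c (d (d (c l k) (c l k)) (c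 l k)) k))) (O (c (c (c l l) (c (c l l) (d l l))) (c (d (d (c l k) (c l k)) (c l k)) k))))) (A (O (c (c (c l (c l l)) (c (d l l) (d (c l l) l))) (c (d (d (c l k) (c l k)) (c l k)) k))) (O (c (c l (c l (d l l))) (c (d (d l l) (c l k)) k))))) (A (B (O (c (c l (d l (c l l))) (c (d (d l l) (c l k)) k))) (O (c (c l (c l (c l l))) (c (d (c l k) (c l k)) k)))) (B (O (c (c l (d l (c l l))) (c (d (d l l) (c l k)) k))) (O (c (c l (d l l)) (c (d (c l k) (c l k)) k)))))) (A (B (A (B (A (O (c (c l (c l l)) (c (d (c l k) (c l k)) k))) (B (A (O (c (c (c l l) (d (c l l) (c l l))) (c (d (d (c l k) l) (c l k)) k))) (B s (A s s))) (A (O (c (c l (c l l)) (c (d (c l k) (c l k)) k))) (B (A (O (c (c (c l l) (d (c l l) (c l l))) (c (d (d l l) (c l k)) k))) s) (A (O (c (c l (c l l)) (c (d (c l k) (c l k)) k))) (B s (O (c (c (c l l) (d (c l l) (c l l))) (c (d (d (c l k) l) (c l k)) k))))))))) (A (O (c l (c (d l l) k))) (B (O (c (c (c l l) (d (c l l) (c l l))) (c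 (d (d (c l k) l) (c l k)) k))) (O (c (c l l) (c (d l l) k)))))) (B (A s s) (A (B (A (B (A s s) (A (O (c (c (c l l) (d (c l l) (c l l))) (c (d (d l l) (c l k)) k))) s)) s) (A (O (c (c (c l (c l l)) (d (c l l) (c l l))) (c (d (d (c l k) l) (c l k)) k))) (B s (A (O (c (c (c l l) (d (c l l) (c l l))) (c (d (d l l) (c l k)) k))) s)))) (B s (A s s))))) (A (B (O (c (c l (d l l)) (c (d (d l l) (c l k)) k))) (O (c (c l l) (c (d l (c l k)) k)))) (B (A (B (O (c (c (c l l) (d (c l l) (c l l))) (c (d (d (c l k) (c l k)) (c l k)) k))) (O (c l (c (c l k) k)))) (B (A (B s (O (c (c (c l l) (d (c l l) (c l l))) (c (d (d l l) (c l k)) k)))) s) (A (O (c (c l l) (c (d l l) k))) (O (c (c (c l l) (d (c l l) (c l l))) (c (d (d l l) (c l k)) k)))))) (A (O (c l (c l k))) (O (c l (c (d l l) k))))))) (B (A s s) (A (B (A (B s (A (B s (O (c (c l l) (d (c l k) (c l k))))) s)) (B s (A s s))) (A (B (O (c (c l l) (c (d l l) k))) (O (c l (d l (c l k))))) (B (A (O (c (c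 l l) (d (d l (c l k)) (c l k)))) (O (c (c l (c l l)) (d (c (c l k) k) (c (c l k) k))))) (O (c l (d l (c l k))))))) (B (A s s) (A (B (A (O (c (c (c l (c l l)) (d (d (c l l) (c l l)) (c l l))) (d (c (d (d (c l k) (c l k)) (c l k)) k) (c (c l k) k)))) s) (O (c l (c l k)))) (B (A s s) (O (c l (c (d l l) k))))))))))

theorem s01_r : Sound P01 0 32768 0 32768 :=
  chkOut3_sound P01 KK tr01_r 0 32768 0 32768 (by decide +kernel)

end Vale.Agent.P154.SN
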