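import Vale.Agent.P154.SN.Charts

set_option maxRecDepth 100000

namespace Vale.Agent.P154.SN

open Cert InT OutT

/-- Certificate tree. -/
def tr10_r10000101 : OutT :=
s

theorem s10_r10000101 : Sound P10 38912 1024 0 4096 :=
  chkOut3_sound P10 KK tr10_r10000101 38912 1024 0 4096 (by decide +kernel)

end Vale.Agent.P154.SN
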