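import Vale.Agent.P154.SN.Charts

set_option maxRecDepth 100000

namespace Vale.Agent.P154.SN

open Cert InT OutT

/-- Certificate tree. -/
def tr10_r1000011 : OutT :=
(A (B (A (B (A (B (A (B (A (O (c (c l (d l (c l (d l l)))) (c (d (d l (c l l)) (c (d (c l l) (c (d l (c l l)) (d l (c (c l l) l)))) (d (d (c l l) (c l l)) (c (d l (c l l)) (d (c l l) (c l l)))))) (d (d k (d (d k (c k k)) (c k k))) (d (c (d (c k k) (c (c l k) (d k l))) (d k (c k k))) (c (d (c (c l l) l) (c l l)) (d (c l l) l))))))) s) (A (B (O (c (c l (d l (c l (d l (c l l))))) (c (d (d l (c l l)) (c (d (c l l) (c (d l (c l (d l l))) (d (c l l) (c (d l l) (c l l))))) (d (d (c l l) (c l l)) (c (d (c l l) (c (c l l) (c l l))) (d (c l l) (c l l)))))) (d (d k (d (d k (c k k)) (c k k))) (d (c (d (c k k) (c (d l l) (d k l))) (d k (c k k))) (c (d (c (c l l) (c l l)) (c l l)) (d (c l l) l))))))) (O (c (c l (d l (c l (d l (c l l))))) (c (d (d l (c l l)) (c (d (d l l) (c (d l (c (c l l) (d l (c l (d l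 (c l (c l l))))))) (d (c l (c l l)) (c (d l (d (c l l) (c (d l (c (c l (d l l)) (d l (c (c l l) (c l l))))) (c (d l (c l l)) l)))) (d l (c (c l l) l)))))) (d (d (c l l) (c (c l l) (c l l))) (c (d (d l l) (c (c (c l l) (c l l)) (c l l))) (d (c (c l l) (c l l)) (c l l)))))) (d (d k (d (d k (c k k)) (c k k))) (d (c (d (c k k) (c (d l (c l k)) (d k l))) (d k (c k k))) (c (d (c (d l l) (c l l)) (c l l)) (d (c l l) l)))))))) s)) s) (A (B (A (B (A (O (c (c l (d l (c l (d l l)))) (c (d (d l (c l l)) (c (d (c l l) (c (d l (c l l)) (d (c l l) (d l (c l l))))) (d (d (c l l) (c l l)) (c (d l (c l l)) (d (c l l) (c l l)))))) (d (d k (d (d k (c k k)) (c k k))) (d (c (d (c k k) (c (c l k) (d k l))) (d k (c k k))) (c (d (c (c l l) l) (c l l)) (d (c l l) l))))))) s) s) s) s) s)) s) s) s) s) s)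

theorem s10_r1000011 : Sound P10 36864 2048 8192 4096 :=
  chkOut3_sound P10 KK tr10_r1000011 36864 2048 8192 4096 (by decide +kernel)

end Vale.Agent.P154.SN
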