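import Vale.Agent.P154.SN.Charts

set_option maxRecDepth 100000

namespace Vale.Agent.P154.SN

open Cert InT OutT

/-- Certificate tree. -/
def tr10_r1001 : OutT :=
s

theorem s10_r1001 : Sound P10 40960 4096 0 16384 :=
  chkOut3_sound P10 KK tr10_r1001 40960 4096 0 16384 (by decide +kernel)

end Vale.Agent.P154.SN
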