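import Vale.Agent.P154.SN.Charts

set_option maxRecDepth 100000

namespace Vale.Agent.P154.SN

open Cert InT OutT

/-- Certificate tree. -/
def tr11_r : OutT :=
(A (A (A (A (A (A (A (O (c (c (c (c (c z (c l l)) (c l l)) (c (c l l) (c l l))) (c (d (c l l) (c l l)) (d (c l l) (c l l)))) (c (d (d (c l k) (c l k)) (c l k)) k))) (O (c (c (c (c (c (c l l) (c l l)) (c l l)) (c (c l l) (c l l))) (c (d (c l l) (c l l)) (d (c l l) (c l l)))) (c (d (d (c l k) (c l k)) (c l k)) k)))) (O (c (c (c (c (c l l) (c l l)) (c (c l l) (c l l))) (c (d (c l l) (c l l)) (d (c l l) (c l l)))) (c (d (d (c l k) (c l k)) (c l k)) k)))) (O (c (c (c (c (c l l) (c l l)) (c (c l l) (c l l))) (c (d (c l l) (c l l)) (d (c l l) (c l l)))) (c (d (d (c l k) (c l k)) (c l k)) k)))) (A (O (c (c (c l (c l l)) (c (d (c l l) (c l l)) (d (c l l) (c l l)))) (c (d (d (c l k) (c l k)) (c l k)) k))) (O (c (c (c l (c l l)) (c (d l l) (d (c l l) l))) (c (d (d (c l k) (c l k)) (c l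 k)) k))))) (A (O (c (c (c (c (c l (c l l)) (d (c l l) (c l l))) (c (d l l) (d l l))) (c (d (c l l) (c l l)) (d (c l l) (c l l)))) (c (d (d (c l k) (c l k)) (c l k)) k))) (O (c (c (c (c (c l (c l l)) (d (c l l) l)) (d (c (c l l) l) (c l l))) (c (d (c l l) (c l l)) (d (c l l) (c l l)))) (c (d (d (c l k) (c l k)) (c l k)) k))))) (A (B (O (c (c (c l (c l l)) (c (d l l) (d (c l l) l))) (c (d (d (c l k) (c l k)) (c l k)) k))) (A (O (c (c (c l l) (c (c l l) (d l l))) (c (d (d (c l k) (c l k)) (c l k)) k))) (O (c (c (c l l) (d (c l l) (c l l))) (c (d (d l l) (c l k)) k))))) (B (O (c (c (c l (c l l)) (d (c l (c l l)) (c l l))) (c (d (d (c l k) (c l k)) (c l k)) k))) (A (O (c (c l (d (c l l) (c l l))) (c (d (d l l) (c l k)) k))) (O (c (c l (d l l)) (c (d (d l l) (c l k)) k))))))) (A (B (A (B (A (O (c (c l (d l (c l l))) (c (d (d l l) (c l k)) k))) (B (A (B (O (c (c (c (c l l) (c l l)) (d (c (c l l) (c l l)) (c l l))) (c (d (d (c l k) (c l k))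 (c l k)) k))) (A (O (c (c l (d l (c l l))) (c (d (d l l) (c l k)) k))) s)) s) (A (B (A (O (c (c l (d (c l l) (c l l))) (c (d (d l l) (c l k)) k))) s) s) s))) (A (O (c (c (c l l) (d (c l l) (c l l))) (c (d (d (c l k) (c l k)) (c l k)) k))) s)) s) (A (B (A (O (c (c (c l l) (d (c l l) (c l l))) (c (d (d (c l k) (c l k)) (c l k)) k))) s) (A (O (c (c l (d l l)) (d (c (d l l) k) (c (c l k) k)))) s)) s)) s))

theorem s11_r : Sound P11 0 32768 0 32768 :=
  chkOut3_sound P11 KK tr11_r 0 32768 0 32768 (by decide +kernel)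

end Vale.Agent.P154.SN
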